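import Vale.Agent.Lib.P078.Pave
import Vale.Agent.Lib.P078.Low

/-!
# P078: the so-paving size of diffuse maximal abelian subalgebras of `B(H)`
-/

namespace Vale.Agent.Results.P078.DiffusePaving

open Vale.Agent.P078

/-- The so-paving size of every diffuse maximal abelian subalgebra of `B(H)` lies between
`⌈1/ε⌉` and `⌊1/ε⌋ + 1`; in particular it is `⌈1/ε⌉` unless `1/ε` is an integer. -/
theorem result {H : Type*} [NormedAddCommGroup H] [InnerProductSpace ℂ H] [CompleteSpace H]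
    [Nontrivial H] (A : VonNeumannAlgebra H) (hA : IsMASA A (full H)) (hd : IsDiffuse A)
    (ε : ℝ) (hε : 0 < ε) :
    ((⌈1 / ε⌉₊ : ℕ) : ℕ∞) ≤ pavingSize A (full H) ε ∧
      pavingSize A (full H) ε ≤ ((⌊1 / ε⌋₊ + 1 : ℕ) : ℕ∞) ∧
      ((∀ k : ℕ, 1 / ε ≠ k) → pavingSize A (full H) ε = ((⌈1 / ε⌉₊ : ℕ) : ℕ∞)) := by
  have hlow : ((⌈1 / ε⌉₊ : ℕ) : ℕ∞) ≤ pavingSize A (full H) ε := by
    unfold pavingSize
    refine le_iInf₂ fun r hr => ?_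
    obtain ⟨hr1, hr2⟩ := hr
    by_contra hlt
    have h1 : r < ⌈1 / ε⌉₊ := by
      by_contra h
      exact hlt (by exact_mod_cast not_lt.mp h)
    have h2 : (r : ℝ) < 1 / ε := Nat.lt_ceil.mp h1
    have hr0 : (0 : ℝ) < r := by exact_mod_cast hr1
    have h3 : ε < 1 / (r : ℝ) := by
      rw [lt_div_iff₀ hr0]
      rw [lt_div_iff₀ hε] at h2
      linarith
    obtain ⟨x, hx, hnx⟩ := not_pavable hA hd hε.le (r := r) hr1 h3
    exact hnx (hr2 x (mem_full x) hx)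
  have hup : pavingSize A (full H) ε ≤ ((⌊1 / ε⌋₊ + 1 : ℕ) : ℕ∞) := by
    unfold pavingSize
    refine iInf₂_le (⌊1 / ε⌋₊ + 1) ⟨Nat.succ_le_succ (Nat.zero_le _), fun x _ hx => ?_⟩
    refine pavable_of_diffuse hA hd x hx (Nat.succ_pos _) ?_
    have h1 : 1 / ε < ((⌊1 / ε⌋₊ + 1 : ℕ) : ℝ) := by
      push_cast
      exact Nat.lt_floor_add_one _
    have h2 : (0 : ℝ) < ((⌊1 / ε⌋₊ + 1 : ℕ) : ℝ) := by positivity
    rw [div_lt_iff₀ h2]
    rw [div_lt_iff₀ hε] at h1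
    linarith
  refine ⟨hlow, hup, fun hk => le_antisymm ?_ hlow⟩
  refine hup.trans ?_
  have h1 : ⌊1 / ε⌋₊ + 1 ≤ ⌈1 / ε⌉₊ := by
    have h2 : ((⌊1 / ε⌋₊ : ℕ) : ℝ) ≤ 1 / ε := Nat.floor_le (by positivity)
    have h3 : ((⌊1 / ε⌋₊ : ℕ) : ℝ) < 1 / ε := lt_of_le_of_ne h2 (fun h => hk _ h.symm)
    exact Nat.succ_le_of_lt (Nat.lt_ceil.mpr h3)
  exact_mod_cast h1

end Vale.Agent.Results.P078.DiffusePaving
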